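import Mathlib

/-!
P049: the graph.
-/

namespace Vale.Agent.P049

/-- vertices: pairs `(x, y)` of elements of `ℤ/q`, the first one among `0, …, D` -/
abbrev Vert (D q : ℕ) : Type := {x : ZMod q // x.val ≤ D} × ZMod q

/-- `(x, y)` and `(x', y')` are adjacent if `x ≠ x'` and `y + y' = x x'` -/
def G (D q : ℕ) : SimpleGraph (Vert D q) where
  Adj u v := u.1 ≠ v.1 ∧ u.2 + v.2 = (u.1 : ZMod q) * (v.1 : ZMod q)
  symm := ⟨fun u v h => ⟨h.1.symm, by rw [add_comm, h.2, mul_comm]⟩⟩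
  loopless := ⟨fun _ h => h.1 rfl⟩

end Vale.Agent.P049
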