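import Vale.Agent.P049.Defs

/-!
P049: the spectral estimate.
-/

namespace Vale.Agent.P049

open Finset

variable {D q : ℕ} [Fact q.Prime]

/-- sum over the neighbours -/
noncomputable def nn (f : Vert D q → ℝ) (x y : ZMod q) : ℝ :=
  ∑ x' : {x : ZMod q // x.val ≤ D}, f (x', x * x' - y)

/-- column sums -/
noncomputable def cs (f : Vert D q → ℝ) (x : {x : ZMod q // x.val ≤ D}) : ℝ := ∑ y, f (x, y)

theorem pair_eq (f : Vert D q → ℝ) (x' : {x : ZMod q // x.val ≤ D}) :
    ∑ x : ZMod q, ∑ y : ZMod q, f (x', x * x' - y) * f (x', x * x' - y) =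
      q * ∑ y, f (x', y) ^ 2 := by
  have h : ∀ x : ZMod q, ∑ y : ZMod q, f (x', x * x' - y) * f (x', x * x' - y) =
      ∑ y, f (x', y) ^ 2 := by
    intro x
    rw [← Equiv.sum_comp (Equiv.subLeft (x * (x' : ZMod q))) (fun y => f (x', y) ^ 2)]
    refine Finset.sum_congr rfl fun y _ => ?_
    rw [Equiv.subLeft_apply, sq]
  rw [Finset.sum_congr rfl fun x _ => h x, Finset.sum_const, Finset.card_univ, ZMod.card,
    nsmul_eq_mul]

theorem pair_ne (f : Vert D q → ℝ) {x' x'' : {x : ZMod q // x.val ≤ D}} (hne : x' ≠ x'') :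
    ∑ x : ZMod q, ∑ y : ZMod q, f (x', x * x' - y) * f (x'', x * x'' - y) =
      cs f x' * cs f x'' := by
  have h : ∀ x : ZMod q, ∑ y : ZMod q, f (x', x * x' - y) * f (x'', x * x'' - y) =
      ∑ y, f (x', y) * f (x'', x * ((x'' : ZMod q) - x') + y) := by
    intro x
    rw [← Equiv.sum_comp (Equiv.subLeft (x * (x' : ZMod q)))
      (fun y => f (x', y) * f (x'', x * ((x'' : ZMod q) - x') + y))]
    refine Finset.sum_congr rfl fun y _ => ?_
    rw [Equiv.subLeft_apply]
    congr 3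
    ring
  rw [Finset.sum_congr rfl fun x _ => h x, Finset.sum_comm]
  unfold cs
  rw [Finset.sum_mul]
  refine Finset.sum_congr rfl fun y _ => ?_
  rw [← Finset.mul_sum]
  congr 1
  have h0 : (x'' : ZMod q) - x' ≠ 0 := by
    rw [sub_ne_zero]
    exact fun h => hne (Subtype.ext h.symm)
  exact Equiv.sum_comp ((Equiv.mulRight₀ _ h0).trans (Equiv.addRight y)) (fun z => f (x'', z))

theorem sum_sq_nn (f : Vert D q → ℝ) :
    ∑ x : ZMod q, ∑ y : ZMod q, nn f x y ^ 2 =
      q * ∑ v, f v ^ 2 + (∑ x, cs f x) ^ 2 - ∑ x, cs f x ^ 2 := by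
  classical
  have h1 : ∑ x : ZMod q, ∑ y : ZMod q, nn f x y ^ 2 =
      ∑ x' : {x : ZMod q // x.val ≤ D}, ∑ x'' : {x : ZMod q // x.val ≤ D},
        ∑ x : ZMod q, ∑ y : ZMod q, f (x', x * x' - y) * f (x'', x * x'' - y) := by
    unfold nn
    simp only [sq, Finset.sum_mul_sum]
    rw [Finset.sum_congr rfl fun x _ => Finset.sum_comm (s := (univ : Finset (ZMod q)))]
    rw [Finset.sum_comm]
    refine Finset.sum_congr rfl fun x' _ => ?_
    rw [Finset.sum_congr rfl fun x _ => Finset.sum_comm (s := (univ : Finset (ZMod q)))]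
    rw [Finset.sum_comm]
  have h2 : ∀ x' x'' : {x : ZMod q // x.val ≤ D},
      ∑ x : ZMod q, ∑ y : ZMod q, f (x', x * x' - y) * f (x'', x * x'' - y) =
        cs f x' * cs f x'' + if x' = x'' then q * ∑ y, f (x', y) ^ 2 - cs f x' ^ 2 else 0 := by
    intro x' x''
    by_cases h : x' = x''
    · subst h
      rw [pair_eq, if_pos rfl]
      ring
    · rw [pair_ne f h, if_neg h, add_zero]
  rw [h1]
  simp only [h2, Finset.sum_add_distrib, Finset.sum_ite_eq, Finset.mem_univ, if_true]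
  rw [← Finset.sum_mul_sum, Finset.sum_sub_distrib, ← Finset.mul_sum, Fintype.sum_prod_type]
  ring

theorem sum_nn_le (f : Vert D q → ℝ) (hf : ∑ v, f v = 0) :
    ∑ v : Vert D q, nn f v.1 v.2 ^ 2 ≤ q * ∑ v, f v ^ 2 := by
  classical
  have h0 : ∑ x, cs f x = 0 := by
    rw [← hf, Fintype.sum_prod_type]
    rfl
  have h1 := sum_sq_nn f
  rw [h0] at h1
  have h2 : 0 ≤ ∑ x, cs f x ^ 2 := Finset.sum_nonneg fun x _ => sq_nonneg _
  have h3 : ∑ v : Vert D q, nn f v.1 v.2 ^ 2 ≤ ∑ x : ZMod q, ∑ y : ZMod q, nn f x y ^ 2 := by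
    rw [Fintype.sum_prod_type]
    have h4 : ∑ x : {x : ZMod q // x.val ≤ D}, ∑ y : ZMod q, nn f x y ^ 2 =
        ∑ x ∈ (univ : Finset (ZMod q)).filter (fun x => x.val ≤ D),
          ∑ y : ZMod q, nn f x y ^ 2 :=
      (Finset.sum_subtype _ (by simp) (fun x : ZMod q => ∑ y : ZMod q, nn f x y ^ 2)).symm
    refine h4.le.trans (Finset.sum_le_sum_of_subset_of_nonneg (Finset.filter_subset _ _) ?_)
    intro x _ _
    exact Finset.sum_nonneg fun y _ => sq_nonneg _
  linarith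

open Classical in
theorem nb_sum (f : Vert D q → ℝ) (v : Vert D q) :
    ∑ u ∈ (G D q).neighborFinset v, f u = nn f v.1 v.2 - f (v.1, (v.1 : ZMod q) * v.1 - v.2) := by
  have h1 : ∑ u ∈ (G D q).neighborFinset v, f u =
      ∑ u : Vert D q, if (v.1 ≠ u.1 ∧ v.2 + u.2 = (v.1 : ZMod q) * (u.1 : ZMod q)) then f u
        else 0 := by
    rw [← Finset.sum_filter]
    refine Finset.sum_congr ?_ fun _ _ => rfl
    ext u
    rw [SimpleGraph.mem_neighborFinset, Finset.mem_filter]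
    simp [G]
  rw [h1, Fintype.sum_prod_type]
  have h2 : ∀ x' : {x : ZMod q // x.val ≤ D}, (∑ y' : ZMod q,
      if (v.1 ≠ (x', y').1 ∧ v.2 + (x', y').2 = (v.1 : ZMod q) * ((x', y').1 : ZMod q)) then
        f (x', y') else 0) =
      f (x', (v.1 : ZMod q) * x' - v.2) -
        if v.1 = x' then f (x', (v.1 : ZMod q) * x' - v.2) else 0 := by
    intro x'
    by_cases h : v.1 = x'
    · rw [if_pos h, sub_self]
      refine Finset.sum_eq_zero fun y' _ => ?_
      rw [if_neg]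
      exact fun h3 => h3.1 h
    · rw [if_neg h, sub_zero, Finset.sum_eq_single ((v.1 : ZMod q) * x' - v.2)]
      · rw [if_pos]
        exact ⟨h, by simp⟩
      · intro y' _ hy'
        rw [if_neg]
        rintro ⟨-, h4⟩
        apply hy'
        simp only at h4
        rw [← h4]
        ring
      · intro h'
        exact absurd (Finset.mem_univ _) h'
  rw [Finset.sum_congr rfl fun x' _ => h2 x', Finset.sum_sub_distrib, Finset.sum_ite_eq,
    if_pos (Finset.mem_univ _)]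
  rfl

open Classical in
/-- the eigenvalue bound -/
theorem eig_le (f : Vert D q → ℝ) (hf0 : f ≠ 0) (hf : ∑ v, f v = 0) {μ : ℝ}
    (h : ((G D q).adjMatrix ℝ).mulVec f = μ • f) : |μ| ≤ √q + 1 := by
  set F := ∑ v, f v ^ 2 with hF
  have hFpos : 0 < F := by
    obtain ⟨v, hv⟩ := Function.ne_iff.1 hf0
    exact Finset.sum_pos' (fun _ _ => sq_nonneg _) ⟨v, Finset.mem_univ v, by
      have hv' : f v ≠ 0 := hv
      positivity⟩
  let a : Vert D q → ℝ := fun v => nn f v.1 v.2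
  let b : Vert D q → ℝ := fun v => f (v.1, (v.1 : ZMod q) * v.1 - v.2)
  have hμ : ∀ v, μ * f v = a v - b v := by
    intro v
    have h1 := congrFun h v
    rw [SimpleGraph.adjMatrix_mulVec_apply, nb_sum] at h1
    exact h1.symm
  have ha : ∑ v, a v ^ 2 ≤ q * F := sum_nn_le f hf
  have hb : ∑ v, b v ^ 2 = F := by
    rw [hF, Fintype.sum_prod_type, Fintype.sum_prod_type]
    refine Finset.sum_congr rfl fun x _ => ?_
    exact Equiv.sum_comp (Equiv.subLeft ((x : ZMod q) * x)) (fun y => f (x, y) ^ 2)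
  have hcs : (∑ v, a v * b v) ^ 2 ≤ (∑ v, a v ^ 2) * ∑ v, b v ^ 2 :=
    Finset.sum_mul_sq_le_sq_mul_sq _ _ _
  have hsq : √(q : ℝ) ^ 2 = q := Real.sq_sqrt (Nat.cast_nonneg q)
  have hs0 : 0 ≤ √(q : ℝ) := Real.sqrt_nonneg _
  have hab : |∑ v, a v * b v| ≤ √q * F := by
    apply abs_le_of_sq_le_sq _ (by positivity)
    rw [mul_pow, hsq]
    calc (∑ v, a v * b v) ^ 2 ≤ (∑ v, a v ^ 2) * ∑ v, b v ^ 2 := hcs
      _ ≤ (q * F) * F := by rw [hb]; exact mul_le_mul_of_nonneg_right ha hFpos.le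
      _ = q * F ^ 2 := by ring
  have hexp : μ ^ 2 * F = ∑ v, a v ^ 2 - 2 * ∑ v, a v * b v + ∑ v, b v ^ 2 := by
    rw [hF, Finset.mul_sum, Finset.mul_sum, ← Finset.sum_sub_distrib, ← Finset.sum_add_distrib]
    refine Finset.sum_congr rfl fun v _ => ?_
    rw [← mul_pow, hμ]
    ring
  have hle : μ ^ 2 * F ≤ (√q + 1) ^ 2 * F := by
    have := (abs_le.1 hab).1
    rw [hexp, hb]
    nlinarith
  have h2 : μ ^ 2 ≤ (√q + 1) ^ 2 := le_of_mul_le_mul_right hle hFpos
  exact abs_le_of_sq_le_sq h2 (by positivity)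

theorem card_first (h : D < q) : Fintype.card {x : ZMod q // x.val ≤ D} = D + 1 := by
  classical
  rw [Fintype.card_subtype, ← Finset.card_image_of_injective _ (ZMod.val_injective q)]
  have : ((univ : Finset (ZMod q)).filter (fun x => x.val ≤ D)).image ZMod.val =
      Finset.range (D + 1) := by
    ext m
    rw [Finset.mem_image, Finset.mem_range]
    constructor
    · rintro ⟨x, hx, rfl⟩
      rw [Finset.mem_filter] at hx
      omega
    · intro hm
      have h1 : (m : ZMod q).val = m := ZMod.val_cast_of_lt (by omega)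
      exact ⟨(m : ZMod q), Finset.mem_filter.2 ⟨Finset.mem_univ _, by omega⟩, h1⟩
  rw [this, Finset.card_range]

theorem card_vert (h : D < q) : Fintype.card (Vert D q) = (D + 1) * q := by
  rw [Fintype.card_prod, card_first h, ZMod.card]

open Classical in
theorem degree_eq (h : D < q) (v : Vert D q) : (G D q).degree v = D := by
  have h1 := nb_sum (fun _ => (1 : ℝ)) v
  rw [Finset.sum_const, nsmul_eq_mul, mul_one] at h1
  have h2 : nn (fun _ : Vert D q => (1 : ℝ)) v.1 v.2 = D + 1 := by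
    unfold nn
    rw [Finset.sum_const, Finset.card_univ, card_first h, nsmul_eq_mul, mul_one]
    push_cast
    rfl
  rw [h2, add_sub_cancel_right] at h1
  exact_mod_cast h1

theorem exists_prime (h : 7 ≤ D) :
    ∃ p : ℕ, p.Prime ∧ D < p ∧ √(p : ℝ) + 1 ≤ 2 * √((D : ℝ) - 1) := by
  obtain ⟨p, hp, h1, h2⟩ := Nat.exists_prime_lt_and_le_two_mul D (by omega)
  refine ⟨p, hp, h1, ?_⟩
  have hD : (7 : ℝ) ≤ D := by exact_mod_cast h
  have hp2 : (p : ℝ) ≤ 2 * D := by exact_mod_cast h2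
  have hs : √((D : ℝ) - 1) ^ 2 = D - 1 := Real.sq_sqrt (by linarith)
  have hs0 : 0 ≤ √((D : ℝ) - 1) := Real.sqrt_nonneg _
  have hs1 : 2.4 ≤ √((D : ℝ) - 1) := by
    apply Real.le_sqrt_of_sq_le
    norm_num
    linarith
  have h3 : √(p : ℝ) ≤ 2 * √((D : ℝ) - 1) - 1 := by
    rw [Real.sqrt_le_left (by linarith)]
    nlinarith
  linarith

end Vale.Agent.P049
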